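import Mathlib.LinearAlgebra.Matrix.PosDef
import Mathlib.Analysis.Complex.Order
import Mathlib.Data.Matrix.ColumnRowPartitioned
import Mathlib.Analysis.Matrix.Order

/-!
# Continuity of Hermitian corners under a Schwarz and co-Schwarz map (harmonic mean)
-/

open Matrix
open scoped ComplexOrder MatrixOrder

namespace Vale.Agent.P372.H347

variable {m n : Type*} [Fintype m] [Fintype n] [DecidableEq m] [DecidableEq n]

/-- The trace of the product of two positive semidefinite matrices is nonnegative. -/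
theorem trace_mul_nonneg {A B : Matrix m m ℂ} (hA : A.PosSemidef) (hB : B.PosSemidef) :
    0 ≤ (A * B).trace.re := by
  obtain ⟨C, rfl⟩ := CStarAlgebra.nonneg_iff_eq_star_mul_self.mp hA.nonneg
  have h := (hB.mul_mul_conjTranspose_same C).trace_nonneg
  rw [Complex.nonneg_iff] at h
  have e : (star C * C * B).trace = (C * B * Cᴴ).trace := by
    rw [star_eq_conjTranspose, Matrix.mul_assoc, Matrix.trace_mul_comm]
  rw [e]
  exact h.1

omit [DecidableEq m] [DecidableEq n] in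
/-- Testing a positive semidefinite block matrix with a pair of matrices. -/
theorem feas {ρ ρ' Z : Matrix m m ℂ} (h : (fromBlocks ρ Z Zᴴ ρ').PosSemidef)
    (U V : Matrix m n ℂ) :
    0 ≤ (Uᴴ * ρ * U).trace.re + 2 * (Uᴴ * Z * V).trace.re + (Vᴴ * ρ' * V).trace.re := by
  have h1 := (h.conjTranspose_mul_mul_same (fromRows U V)).trace_nonneg
  rw [conjTranspose_fromRows_eq_fromCols_conjTranspose, fromCols_mul_fromBlocks,
    fromCols_mul_fromRows] at h1
  rw [Complex.nonneg_iff] at h1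
  have h2 := h1.1
  have e : (Vᴴ * Zᴴ * U).trace.re = (Uᴴ * Z * V).trace.re := by
    have : Vᴴ * Zᴴ * U = (Uᴴ * Z * V)ᴴ := by
      simp only [conjTranspose_mul, conjTranspose_conjTranspose, Matrix.mul_assoc]
    rw [this, trace_conjTranspose, Complex.star_def, Complex.conj_re]
  simp only [Matrix.add_mul, trace_add, Complex.add_re] at h2
  rw [e] at h2
  linarith

/-- The harmonic mean of two positive semidefinite matrices is a Hermitian corner. -/
theorem harmonic {σ σ' : Matrix m m ℂ} (hσ : σ.PosSemidef) (hσ' : σ'.PosSemidef)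
    (hP : (σ + σ').PosDef) :
    (σ * (σ + σ')⁻¹ * σ').PosSemidef ∧
      σ * (σ + σ')⁻¹ * σ' = σ - σ * (σ + σ')⁻¹ * σ ∧
      (fromBlocks σ ((2 : ℂ) • (σ * (σ + σ')⁻¹ * σ')) ((2 : ℂ) • (σ * (σ + σ')⁻¹ * σ'))
        σ').PosSemidef := by
  have hu : IsUnit (σ + σ').det := (Matrix.isUnit_iff_isUnit_det _).mp hP.isUnit
  set Q : Matrix m m ℂ := (σ + σ')⁻¹ with hQ
  have hQp : Q.PosSemidef := hP.inv.posSemidef
  have e1 : Q * (σ + σ') = 1 := Matrix.nonsing_inv_mul _ hu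
  have e2 : (σ + σ') * Q = 1 := Matrix.mul_nonsing_inv _ hu
  have hσh : σᴴ = σ := hσ.isHermitian
  have hσh' : σ'ᴴ = σ' := hσ'.isHermitian
  have hQh : Qᴴ = Q := hQp.isHermitian
  have a1 : σ * Q * σ + σ * Q * σ' = σ := by
    rw [← Matrix.mul_add, Matrix.mul_assoc, e1, Matrix.mul_one]
  have a2 : σ * Q * σ + σ' * Q * σ = σ := by
    rw [← Matrix.add_mul, ← Matrix.add_mul, e2, Matrix.one_mul]
  have a3 : σ * Q * σ' = σ' * Q * σ := by
    have := a1.trans a2.symm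
    exact add_left_cancel this
  have a4 : σ' * Q * σ' + σ * Q * σ' = σ' := by
    rw [← Matrix.add_mul, ← Matrix.add_mul, add_comm σ' σ, e2, Matrix.one_mul]
  have b1 : σ * Q * σ' = (Q * σ')ᴴ * σ * (Q * σ') + (Q * σ)ᴴ * σ' * (Q * σ) := by
    rw [conjTranspose_mul, conjTranspose_mul, hσh, hσh', hQh]
    have c1 : σ' * Q * σ * (Q * σ') = σ * Q * σ' * (Q * σ') := by rw [a3]
    have c2 : σ * Q * σ' * (Q * σ') + σ * Q * σ' * (Q * σ) = σ * Q * σ' := by
      rw [← Matrix.mul_add, ← Matrix.mul_add, add_comm σ' σ, e1, Matrix.mul_one]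
    rw [c1, c2]
  have hN : (σ * Q * σ').PosSemidef := by
    rw [b1]
    exact (hσ.conjTranspose_mul_mul_same _).add (hσ'.conjTranspose_mul_mul_same _)
  refine ⟨hN, eq_sub_of_add_eq' a1, ?_⟩
  have f1 : (fromBlocks (σ * Q * σ') (σ * Q * σ') (σ * Q * σ') (σ * Q * σ')).PosSemidef := by
    have := hN.conjTranspose_mul_mul_same (fromCols (1 : Matrix m m ℂ) (1 : Matrix m m ℂ))
    rwa [conjTranspose_fromCols_eq_fromRows_conjTranspose, conjTranspose_one, fromRows_mul,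
      fromRows_mul_fromCols, Matrix.one_mul, Matrix.mul_one] at this
  have f2 : (fromBlocks (σ * Q * σ) (σ * Q * σ') (σ' * Q * σ) (σ' * Q * σ')).PosSemidef := by
    have := hQp.conjTranspose_mul_mul_same (fromCols σ σ')
    rwa [conjTranspose_fromCols_eq_fromRows_conjTranspose, hσh, hσh', fromRows_mul,
      fromRows_mul_fromCols] at this
  have := f1.add f2
  rw [fromBlocks_add] at this
  convert this using 2
  · rw [add_comm]; exact a1.symm
  · rw [two_smul]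
  · rw [two_smul, ← a3]
  · rw [add_comm]; exact a4.symm

/-- **Continuity of Hermitian corners.**  If `S` is self-dual, trace preserving, Schwarz and
co-Schwarz, then every corner `Z` of `(ρ, ρ')` gives a Hermitian corner `H` of `(S ρ, S ρ')` with
`tr H ≥ 2 Re tr Z - (tr ρ + tr ρ') / 2`. -/
theorem cprime (S : Matrix m m ℂ → Matrix m m ℂ)
    (htr : ∀ X, (S X).trace = X.trace)
    (hdual : ∀ X Y, (S X * Y).trace = (X * S Y).trace)
    (hsw : ∀ Y, (S (Y * Yᴴ) - S Y * (S Y)ᴴ).PosSemidef)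
    (hco : ∀ Y, (S (Y * Yᴴ) - (S Y)ᴴ * S Y).PosSemidef)
    {ρ ρ' Z : Matrix m m ℂ} (h : (fromBlocks ρ Z Zᴴ ρ').PosSemidef)
    (hρ : ρ.PosSemidef) (hρ' : ρ'.PosSemidef)
    (hσ : (S ρ).PosSemidef) (hσ' : (S ρ').PosSemidef) (hP : (S ρ + S ρ').PosDef) :
    ∃ H : Matrix m m ℂ, H.PosSemidef ∧ (fromBlocks (S ρ) H H (S ρ')).PosSemidef ∧
      2 * Z.trace.re - (ρ.trace.re + ρ'.trace.re) / 2 ≤ H.trace.re := by
  obtain ⟨g1, g2, g3⟩ := harmonic hσ hσ' hP
  refine ⟨(2 : ℂ) • (S ρ * (S ρ + S ρ')⁻¹ * S ρ'), ?_, g3, ?_⟩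
  · rw [two_smul]; exact g1.add g1
  have hu : IsUnit (S ρ + S ρ').det := (Matrix.isUnit_iff_isUnit_det _).mp hP.isUnit
  set σ := S ρ with hs
  set σ' := S ρ' with hs'
  set Q : Matrix m m ℂ := (σ + σ')⁻¹ with hQ
  have hQh : Qᴴ = Q := hP.inv.posSemidef.isHermitian
  have hσh : σᴴ = σ := hσ.isHermitian
  have e2 : (σ + σ') * Q = 1 := Matrix.mul_nonsing_inv _ hu
  rw [g2]
  set Y : Matrix m m ℂ := Q * σ with hY
  set D : Matrix m m ℂ := S Y with hD
  -- the trace of `σ Q σ`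
  have t1 : (σ * Q * σ).trace = (σ * Y).trace := by rw [hY, Matrix.mul_assoc]
  have t2 : (σ * Q * σ).trace = (σ * (Y * Yᴴ)).trace + (σ' * (Y * Yᴴ)).trace := by
    have : σ * (Y * Yᴴ) + σ' * (Y * Yᴴ) = σ * (σ * Q) := by
      rw [← Matrix.add_mul, hY, conjTranspose_mul, hσh, hQh, ← Matrix.mul_assoc,
        ← Matrix.mul_assoc (σ + σ'), e2, Matrix.one_mul]
    rw [← trace_add, this, Matrix.trace_mul_comm]
  have t3 : (σ * Y).trace = (ρ * D).trace := by rw [hs, hdual]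
  have t4 : (σ * (Y * Yᴴ)).trace = (ρ * S (Y * Yᴴ)).trace := by rw [hs, hdual]
  have t5 : (σ' * (Y * Yᴴ)).trace = (ρ' * S (Y * Yᴴ)).trace := by rw [hs', hdual]
  have i1 := trace_mul_nonneg hρ (hco Y)
  have i2 := trace_mul_nonneg hρ' (hsw Y)
  rw [Matrix.mul_sub, trace_sub, Complex.sub_re] at i1 i2
  rw [← hD] at i1 i2
  -- the two tests
  have j1 := feas h ((1 - D)ᴴ) (-(1 / 2 : ℂ) • (1 : Matrix m m ℂ))
  have j2 := feas h ((1 / 2 : ℂ) • (1 : Matrix m m ℂ)) (-D)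
  have k1 : (((1 - D)ᴴ)ᴴ * ρ * (1 - D)ᴴ).trace.re =
      ρ.trace.re - 2 * (ρ * D).trace.re + (ρ * (Dᴴ * D)).trace.re := by
    have a : (((1 - D)ᴴ)ᴴ * ρ * (1 - D)ᴴ).trace =
        ρ.trace - (ρ * D).trace - (ρ * Dᴴ).trace + (ρ * (Dᴴ * D)).trace := by
      rw [conjTranspose_conjTranspose, conjTranspose_sub, conjTranspose_one]
      have : (1 - D) * ρ * (1 - Dᴴ) = ρ - D * ρ - ρ * Dᴴ + D * ρ * Dᴴ := by
        noncomm_ring
      rw [this, trace_add, trace_sub, trace_sub, Matrix.trace_mul_comm D ρ,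
        Matrix.mul_assoc D ρ, Matrix.trace_mul_comm D, Matrix.mul_assoc]
    have b : (ρ * Dᴴ).trace.re = (ρ * D).trace.re := by
      have : ρ * Dᴴ = (D * ρ)ᴴ := by rw [conjTranspose_mul, hρ.isHermitian]
      rw [this, trace_conjTranspose, Complex.star_def, Complex.conj_re, Matrix.trace_mul_comm]
    rw [a]
    simp only [Complex.add_re, Complex.sub_re]
    rw [b]; ring
  have k2 : (((1 - D)ᴴ)ᴴ * Z * (-(1 / 2 : ℂ) • (1 : Matrix m m ℂ))).trace.re =
      -(1 / 2) * (Z.trace.re - (Z * D).trace.re) := by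
    rw [conjTranspose_conjTranspose, Matrix.mul_smul, Matrix.mul_one, trace_smul, Matrix.sub_mul,
      Matrix.one_mul, trace_sub, Matrix.trace_mul_comm D Z, smul_eq_mul]
    simp
  have k3 : ((-(1 / 2 : ℂ) • (1 : Matrix m m ℂ))ᴴ * ρ' * (-(1 / 2 : ℂ) •
      (1 : Matrix m m ℂ))).trace.re = (1 / 4) * ρ'.trace.re := by
    rw [conjTranspose_smul, conjTranspose_one, Matrix.smul_mul, Matrix.mul_smul, Matrix.smul_mul,
      Matrix.one_mul, Matrix.mul_one, trace_smul, trace_smul, smul_eq_mul, smul_eq_mul]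
    have : (star (-(1 / 2 : ℂ))) = -(1 / 2 : ℂ) := by simp
    rw [this]
    have e : (-(1 / 2 : ℂ)) * (-(1 / 2 : ℂ) * ρ'.trace) = ((1 / 4 : ℝ) : ℂ) * ρ'.trace := by
      push_cast; ring
    rw [e, Complex.re_ofReal_mul]
  have k4 : (((1 / 2 : ℂ) • (1 : Matrix m m ℂ))ᴴ * ρ * ((1 / 2 : ℂ) •
      (1 : Matrix m m ℂ))).trace.re = (1 / 4) * ρ.trace.re := by
    rw [conjTranspose_smul, conjTranspose_one, Matrix.smul_mul, Matrix.mul_smul, Matrix.smul_mul,
      Matrix.one_mul, Matrix.mul_one, trace_smul, trace_smul, smul_eq_mul, smul_eq_mul]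
    have : (star (1 / 2 : ℂ)) = (1 / 2 : ℂ) := by simp
    rw [this]
    have e : (1 / 2 : ℂ) * ((1 / 2 : ℂ) * ρ.trace) = ((1 / 4 : ℝ) : ℂ) * ρ.trace := by
      push_cast; ring
    rw [e, Complex.re_ofReal_mul]
  have k5 : (((1 / 2 : ℂ) • (1 : Matrix m m ℂ))ᴴ * Z * (-D)).trace.re =
      -(1 / 2) * (Z * D).trace.re := by
    rw [conjTranspose_smul, conjTranspose_one, Matrix.smul_mul, Matrix.smul_mul,
      Matrix.one_mul, Matrix.mul_neg, trace_smul, trace_neg, smul_eq_mul]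
    simp
  have k6 : ((-D)ᴴ * ρ' * (-D)).trace.re = (ρ' * (D * Dᴴ)).trace.re := by
    have : (-D)ᴴ * ρ' * (-D) = Dᴴ * (ρ' * D) := by
      rw [conjTranspose_neg]; simp [Matrix.mul_assoc]
    rw [this, Matrix.trace_mul_comm, Matrix.mul_assoc]
  rw [k1, k2, k3] at j1
  rw [k4, k5, k6] at j2
  have q1 := congrArg Complex.re t1
  have q2 := congrArg Complex.re t2
  have q3 := congrArg Complex.re t3
  have q4 := congrArg Complex.re t4
  have q5 := congrArg Complex.re t5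
  rw [Complex.add_re] at q2
  have q6 : σ.trace.re = ρ.trace.re := by rw [hs, htr]
  have q7 : ((2 : ℂ) • (σ - σ * Q * σ)).trace.re = 2 * (σ.trace.re - (σ * Q * σ).trace.re) := by
    rw [trace_smul, trace_sub, smul_eq_mul]
    simp
  rw [q7]
  linarith

end Vale.Agent.P372.H347
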